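import Vale.Agent.P267.H877.Setup
import Vale.Agent.P267.H399.Calc

/-!
# P267 / XA-T1: pointwise norms of forms (helper87)

`n0`, `n1`, `n2` of `H877/Setup.lean` are norms; wedge inequality; invariance under change of
charts; continuity.
-/

set_option linter.unusedVariables false
set_option linter.unusedSectionVars false

open scoped Manifold ContDiff ComplexConjugate Matrix ComplexOrder Topology
open MeasureTheory Set Filter

noncomputable section

namespace Vale.Agent.P267.H87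

open FL XT

variable {V : Type*} [NormedAddCommGroup V] [InnerProductSpace ℂ V]

/-! ### linear algebra -/

/-- norm squared of a `(0,1)`-covector with respect to a Hermitian matrix -/
def Q (H : Matrix (Fin 2) (Fin 2) ℂ) (a : Fin 2 → V) : ℝ :=
  (∑ i, ∑ j, H⁻¹ j i * inner ℂ (a i) (a j)).re

/-- a square root of the inverse metric -/
theorem exists_root {H : Matrix (Fin 2) (Fin 2) ℂ} (hH : H.PosDef) :
    ∃ B : Matrix (Fin 2) (Fin 2) ℂ, (∀ i j, H⁻¹ j i = ∑ k, conj (B k i) * B k j) ∧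
      ‖B.det‖ ^ 2 * H.det.re = 1 ∧ 0 < H.det.re := by
  have h1 : (H⁻¹)ᵀ.PosSemidef := hH.inv.transpose.posSemidef
  obtain ⟨B, hB⟩ : ∃ B : Matrix (Fin 2) (Fin 2) ℂ, (H⁻¹)ᵀ = Bᴴ * B := by
    open scoped MatrixOrder in
    exact CStarAlgebra.nonneg_iff_eq_star_mul_self.1 h1.nonneg
  refine ⟨B, fun i j => ?_, ?_, ?_⟩
  · have := congrFun (congrFun hB i) j
    rw [Matrix.transpose_apply, Matrix.mul_apply] at this
    rw [this]
    simp [Matrix.conjTranspose_apply]
  · have hd := congrArg Matrix.det hB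
    rw [Matrix.det_transpose, Matrix.det_nonsing_inv, Matrix.det_mul, Matrix.det_conjTranspose,
      Ring.inverse_eq_inv'] at hd
    have hp := hH.det_pos
    have hp' : 0 < H.det.re ∧ H.det.im = 0 := by
      have := Complex.lt_def.1 hp
      exact ⟨by simpa using this.1, by simpa using this.2.symm⟩
    have hre : H.det = (H.det.re : ℂ) := Complex.ext rfl (by simp [hp'.2])
    have h2 : star B.det * B.det = ((‖B.det‖ ^ 2 : ℝ) : ℂ) := by
      rw [Complex.star_def, ← Complex.normSq_eq_conj_mul_self, Complex.normSq_eq_norm_sq]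
    rw [h2, hre, ← Complex.ofReal_inv] at hd
    have h3 : (H.det.re)⁻¹ = ‖B.det‖ ^ 2 := by exact_mod_cast hd
    rw [← h3]
    exact inv_mul_cancel₀ hp'.1.ne'
  · have := Complex.lt_def.1 hH.det_pos
    simpa using this.1

/-- the linear map given by a matrix on pairs of vectors -/
def bact (B : Matrix (Fin 2) (Fin 2) ℂ) (a : Fin 2 → V) : PiLp 2 (fun _ : Fin 2 => V) :=
  WithLp.toLp 2 fun k => ∑ j, B k j • a j

theorem bact_add (B : Matrix (Fin 2) (Fin 2) ℂ) (a b : Fin 2 → V) :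
    bact B (fun i => a i + b i) = bact B a + bact B b := by
  ext k
  simp [bact, smul_add, Finset.sum_add_distrib]

theorem bact_smul (B : Matrix (Fin 2) (Fin 2) ℂ) (c : ℂ) (a : Fin 2 → V) :
    bact B (fun i => c • a i) = c • bact B a := by
  ext k
  simp only [bact, PiLp.smul_apply, Finset.smul_sum]
  exact Finset.sum_congr rfl fun j _ => smul_comm _ _ _

theorem Q_eq {H B : Matrix (Fin 2) (Fin 2) ℂ}
    (hB : ∀ i j, H⁻¹ j i = ∑ k, conj (B k i) * B k j) (a : Fin 2 → V) :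
    Q H a = ‖bact B a‖ ^ 2 := by
  rw [PiLp.norm_sq_eq_of_L2, Q]
  have : ∀ k, (‖(bact B a) k‖ ^ 2 : ℝ) =
      (∑ i, ∑ j, conj (B k i) * B k j * inner ℂ (a i) (a j)).re := by
    intro k
    have h1 : (‖(bact B a) k‖ ^ 2 : ℝ) = (inner ℂ ((bact B a) k) ((bact B a) k) : ℂ).re := by
      rw [← inner_self_eq_norm_sq (𝕜 := ℂ)]; rfl
    rw [h1]
    congr 1
    simp only [bact]
    rw [sum_inner]
    refine Finset.sum_congr rfl fun i _ => ?_
    rw [inner_sum]
    refine Finset.sum_congr rfl fun j _ => ?_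
    rw [inner_smul_left, inner_smul_right]
    ring
  simp_rw [this]
  rw [← Complex.re_sum]
  congr 1
  simp only [hB, Fin.sum_univ_two]
  ring

/-- the norms on coefficients -/
def N0 (H : Matrix (Fin 2) (Fin 2) ℂ) (κ : ℤ) (s : V) : ℝ := ‖s‖ * H.det.re ^ (-(κ : ℝ) / 2)
/-- the norms on coefficients -/
def N1 (H : Matrix (Fin 2) (Fin 2) ℂ) (κ : ℤ) (a : Fin 2 → V) : ℝ :=
  Real.sqrt (Q H a) * H.det.re ^ (-(κ : ℝ) / 2)
/-- the norms on coefficients -/
def N2 (H : Matrix (Fin 2) (Fin 2) ℂ) (κ : ℤ) (b : V) : ℝ :=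
  ‖b‖ * H.det.re ^ (-((κ : ℝ) + 1) / 2)

theorem N1_eq {H B : Matrix (Fin 2) (Fin 2) ℂ}
    (hB : ∀ i j, H⁻¹ j i = ∑ k, conj (B k i) * B k j) (κ : ℤ) (a : Fin 2 → V) :
    N1 H κ a = ‖bact B a‖ * H.det.re ^ (-(κ : ℝ) / 2) := by
  rw [N1, Q_eq hB, Real.sqrt_sq (norm_nonneg _)]

variable {H : Matrix (Fin 2) (Fin 2) ℂ} {κ : ℤ}

theorem N0_nonneg (hH : H.PosDef) (s : V) : 0 ≤ N0 H κ s := by
  obtain ⟨B, hB, h1, h2⟩ := exists_root hH
  exact mul_nonneg (norm_nonneg _) (Real.rpow_nonneg h2.le _)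

theorem N2_nonneg (hH : H.PosDef) (s : V) : 0 ≤ N2 H κ s := by
  obtain ⟨B, hB, h1, h2⟩ := exists_root hH
  exact mul_nonneg (norm_nonneg _) (Real.rpow_nonneg h2.le _)

theorem N1_nonneg (hH : H.PosDef) (a : Fin 2 → V) : 0 ≤ N1 H κ a := by
  obtain ⟨B, hB, h1, h2⟩ := exists_root hH
  exact mul_nonneg (Real.sqrt_nonneg _) (Real.rpow_nonneg h2.le _)

theorem N0_add_le (hH : H.PosDef) (s t : V) : N0 H κ (s + t) ≤ N0 H κ s + N0 H κ t := by
  obtain ⟨B, hB, h1, h2⟩ := exists_root hH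
  rw [N0, N0, N0, ← add_mul]
  exact mul_le_mul_of_nonneg_right (norm_add_le _ _) (Real.rpow_nonneg h2.le _)

theorem N2_add_le (hH : H.PosDef) (s t : V) : N2 H κ (s + t) ≤ N2 H κ s + N2 H κ t := by
  obtain ⟨B, hB, h1, h2⟩ := exists_root hH
  rw [N2, N2, N2, ← add_mul]
  exact mul_le_mul_of_nonneg_right (norm_add_le _ _) (Real.rpow_nonneg h2.le _)

theorem N1_add_le (hH : H.PosDef) (a b : Fin 2 → V) :
    N1 H κ (fun i => a i + b i) ≤ N1 H κ a + N1 H κ b := by
  obtain ⟨B, hB, h1, h2⟩ := exists_root hH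
  rw [N1_eq hB, N1_eq hB, N1_eq hB, ← add_mul, bact_add]
  exact mul_le_mul_of_nonneg_right (norm_add_le _ _) (Real.rpow_nonneg h2.le _)

theorem N0_smul (c : ℂ) (s : V) : N0 H κ (c • s) = ‖c‖ * N0 H κ s := by
  rw [N0, N0, norm_smul, mul_assoc]

theorem N2_smul (c : ℂ) (s : V) : N2 H κ (c • s) = ‖c‖ * N2 H κ s := by
  rw [N2, N2, norm_smul, mul_assoc]

theorem N1_smul (hH : H.PosDef) (c : ℂ) (a : Fin 2 → V) :
    N1 H κ (fun i => c • a i) = ‖c‖ * N1 H κ a := by
  obtain ⟨B, hB, h1, h2⟩ := exists_root hH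
  rw [N1_eq hB, N1_eq hB, bact_smul, norm_smul, mul_assoc]

theorem N1_zero (hH : H.PosDef) : N1 H κ (fun _ => (0 : V)) = 0 := by
  have := N1_smul (V := V) (κ := κ) hH 0 (fun _ => 0)
  simpa using this

theorem N1_neg (hH : H.PosDef) (a : Fin 2 → V) : N1 H κ (fun i => -a i) = N1 H κ a := by
  have := N1_smul (κ := κ) hH (-1) a
  simpa using this

theorem N1_sub_le (hH : H.PosDef) (a b : Fin 2 → V) :
    N1 H κ (fun i => a i - b i) ≤ N1 H κ a + N1 H κ b := by
  have := N1_add_le (κ := κ) hH a (fun i => -b i)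
  rw [N1_neg hH] at this
  simpa [sub_eq_add_neg] using this

theorem N0_neg (s : V) : N0 H κ (-s) = N0 H κ s := by rw [N0, N0, norm_neg]

theorem N2_neg (s : V) : N2 H κ (-s) = N2 H κ s := by rw [N2, N2, norm_neg]

theorem N0_sub_le (hH : H.PosDef) (s t : V) : N0 H κ (s - t) ≤ N0 H κ s + N0 H κ t := by
  rw [sub_eq_add_neg, ← N0_neg t]; exact N0_add_le hH s (-t)

theorem N2_sub_le (hH : H.PosDef) (s t : V) : N2 H κ (s - t) ≤ N2 H κ s + N2 H κ t := by
  rw [sub_eq_add_neg, ← N2_neg t]; exact N2_add_le hH s (-t)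

theorem N1_sum_le (hH : H.PosDef) {ι : Type*} (S : Finset ι) (a : ι → Fin 2 → V) :
    N1 H κ (fun i => ∑ l ∈ S, a l i) ≤ ∑ l ∈ S, N1 H κ (a l) := by
  classical
  induction S using Finset.induction_on with
  | empty => simp [N1_zero hH]
  | insert l S hl ih =>
    simp only [Finset.sum_insert hl]
    exact (N1_add_le hH _ _).trans (by gcongr)

theorem N1_eq_zero_iff (hH : H.PosDef) (a : Fin 2 → V) : N1 H κ a = 0 ↔ a = 0 := by
  obtain ⟨B, hB, h1, h2⟩ := exists_root hH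
  constructor
  · intro h
    rw [N1_eq hB, mul_eq_zero, or_iff_left (Real.rpow_pos_of_pos h2 _).ne', norm_eq_zero] at h
    have hd : B.det ≠ 0 := by
      intro h0
      rw [h0] at h1
      simp at h1
    have e0 : B 0 0 • a 0 + B 0 1 • a 1 = 0 := by
      have := congrArg (fun v : PiLp 2 (fun _ : Fin 2 => V) => v 0) h
      simpa [bact, Fin.sum_univ_two] using this
    have e1 : B 1 0 • a 0 + B 1 1 • a 1 = 0 := by
      have := congrArg (fun v : PiLp 2 (fun _ : Fin 2 => V) => v 1) h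
      simpa [bact, Fin.sum_univ_two] using this
    have k0 : B.det • a 0 = 0 := by
      rw [Matrix.det_fin_two]
      have : (B 0 0 * B 1 1 - B 0 1 * B 1 0) • a 0 =
          B 1 1 • (B 0 0 • a 0 + B 0 1 • a 1) - B 0 1 • (B 1 0 • a 0 + B 1 1 • a 1) := by
        simp only [smul_add, smul_smul, sub_smul]
        rw [mul_comm (B 1 1) (B 0 0), mul_comm (B 1 1) (B 0 1)]
        abel
      rw [this, e0, e1]; simp
    have k1 : B.det • a 1 = 0 := by
      rw [Matrix.det_fin_two]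
      have : (B 0 0 * B 1 1 - B 0 1 * B 1 0) • a 1 =
          B 0 0 • (B 1 0 • a 0 + B 1 1 • a 1) - B 1 0 • (B 0 0 • a 0 + B 0 1 • a 1) := by
        simp only [smul_add, smul_smul, sub_smul]
        rw [mul_comm (B 1 0) (B 0 0), mul_comm (B 1 0) (B 0 1)]
        abel
      rw [this, e0, e1]; simp
    funext i
    fin_cases i
    · exact (smul_eq_zero.1 k0).resolve_left hd
    · exact (smul_eq_zero.1 k1).resolve_left hd
  · rintro rfl
    exact N1_zero hH

/-- the wedge product of a scalar `(0,1)`-covector and a vector valued one -/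
def wdg (α : Fin 2 → ℂ) (β : Fin 2 → V) : V := α 0 • β 1 - α 1 • β 0

theorem N2_wdg_le (hH : H.PosDef) (α : Fin 2 → ℂ) (β : Fin 2 → V) :
    N2 H κ (wdg α β) ≤ N1 H 0 α * N1 H κ β := by
  obtain ⟨B, hB, h1, h2⟩ := exists_root hH
  have hα : N1 H 0 α = ‖bact B α‖ := by
    rw [N1_eq hB]; simp
  have hw : B.det • wdg α β = wdg (fun k => ∑ j, B k j * α j) (fun k => ∑ j, B k j • β j) := by
    simp only [wdg, Matrix.det_fin_two, Fin.sum_univ_two, smul_add, smul_smul, smul_sub]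
    module
  have hn : ‖B.det‖ * ‖wdg α β‖ ≤ ‖bact B α‖ * ‖bact B β‖ := by
    rw [← norm_smul, hw]
    set α' : Fin 2 → ℂ := fun k => ∑ j, B k j * α j with hα'
    set β' : Fin 2 → V := fun k => ∑ j, B k j • β j with hβ'
    have e1 : ‖bact B α‖ = Real.sqrt (‖α' 0‖ ^ 2 + ‖α' 1‖ ^ 2) := by
      rw [PiLp.norm_eq_of_L2, Fin.sum_univ_two]; rfl
    have e2 : ‖bact B β‖ = Real.sqrt (‖β' 0‖ ^ 2 + ‖β' 1‖ ^ 2) := by
      rw [PiLp.norm_eq_of_L2, Fin.sum_univ_two]
      rfl
    rw [e1, e2, ← Real.sqrt_mul (by positivity)]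
    apply Real.le_sqrt_of_sq_le
    have t : ‖wdg α' β'‖ ≤ ‖α' 0‖ * ‖β' 1‖ + ‖α' 1‖ * ‖β' 0‖ := by
      refine (norm_sub_le _ _).trans ?_
      rw [norm_smul, norm_smul]
    have t0 := norm_nonneg (wdg α' β')
    have : ‖wdg α' β'‖ ^ 2 ≤ (‖α' 0‖ * ‖β' 1‖ + ‖α' 1‖ * ‖β' 0‖) ^ 2 := by gcongr
    nlinarith [sq_nonneg (‖α' 0‖ * ‖β' 0‖ - ‖α' 1‖ * ‖β' 1‖)]
  have hdet : ‖B.det‖ = H.det.re ^ (-(1 : ℝ) / 2) := by
    have hx : ‖B.det‖ ^ 2 = H.det.re⁻¹ := by
      field_simp; linarith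
    have : ‖B.det‖ = Real.sqrt (H.det.re⁻¹) := by rw [← hx, Real.sqrt_sq (norm_nonneg _)]
    rw [this, Real.sqrt_eq_rpow, ← Real.rpow_neg_one, ← Real.rpow_mul h2.le]
    norm_num
  rw [hα, N1_eq hB, N2]
  have hsplit : H.det.re ^ (-((κ : ℝ) + 1) / 2) =
      H.det.re ^ (-(1 : ℝ) / 2) * H.det.re ^ (-(κ : ℝ) / 2) := by
    rw [← Real.rpow_add h2]; congr 1; ring
  rw [hsplit, ← hdet, ← mul_assoc, ← mul_assoc, mul_comm ‖wdg α β‖]
  exact mul_le_mul_of_nonneg_right hn (Real.rpow_nonneg h2.le _)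

/-! ### invariance under change of coordinates -/

theorem root_mat {H B : Matrix (Fin 2) (Fin 2) ℂ} :
    (∀ i j, H⁻¹ j i = ∑ k, conj (B k i) * B k j) ↔ (H⁻¹)ᵀ = Bᴴ * B := by
  constructor
  · intro h
    ext i j
    rw [Matrix.transpose_apply, h, Matrix.mul_apply]
    simp [Matrix.conjTranspose_apply]
  · intro h i j
    have := congrFun (congrFun h i) j
    rw [Matrix.transpose_apply, Matrix.mul_apply] at this
    rw [this]
    simp [Matrix.conjTranspose_apply]

/-- transformation of the metric -/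
theorem det_change (J H : Matrix (Fin 2) (Fin 2) ℂ) (hH : H.PosDef) :
    (Jᵀ * H * J.map conj).det.re = ‖J.det‖ ^ 2 * H.det.re := by
  obtain ⟨r, hr⟩ : ∃ r : ℝ, H.det = (r : ℂ) := by
    have hp' : H.det.im = 0 := by
      have := Complex.lt_def.1 hH.det_pos
      simpa using this.2.symm
    exact ⟨H.det.re, Complex.ext rfl (by simp [hp'])⟩
  have h3 : (J.map conj).det = conj J.det := by
    rw [RingHom.map_det]; rfl
  rw [Matrix.det_mul, Matrix.det_mul, Matrix.det_transpose, h3, hr, Complex.ofReal_re]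
  have : J.det * r * conj J.det = ((‖J.det‖ ^ 2 * r : ℝ) : ℂ) := by
    push_cast
    have h4 : (‖J.det‖ : ℂ) ^ 2 = J.det * conj J.det := by
      rw [Complex.mul_conj, Complex.normSq_eq_norm_sq]; push_cast; ring
    rw [h4]; ring
  rw [this, Complex.ofReal_re]

theorem posDef_change {J H : Matrix (Fin 2) (Fin 2) ℂ} (hH : H.PosDef) (hJ : J.det ≠ 0) :
    (Jᵀ * H * J.map conj).PosDef := by
  have h1 : J.map conj = (Jᵀ)ᴴ := by
    ext i j; simp [Matrix.conjTranspose_apply]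
  rw [h1]
  refine hH.mul_mul_conjTranspose_same ?_
  intro v w hvw
  have hu : IsUnit Jᵀ.det := by rw [Matrix.det_transpose]; exact isUnit_iff_ne_zero.2 hJ
  have := congrArg (fun y => Matrix.vecMul y (Jᵀ)⁻¹) hvw
  simp only [Matrix.vecMul_vecMul] at this
  rwa [Matrix.mul_nonsing_inv _ hu, Matrix.vecMul_one, Matrix.vecMul_one] at this

theorem rpow_change {t : ℝ} (ht : 0 < t) {δ : ℝ} (hδ : 0 < δ) (κ : ℝ) :
    (δ ^ 2 * t) ^ (-κ / 2) = δ ^ (-κ) * t ^ (-κ / 2) := by
  rw [Real.mul_rpow (by positivity) ht.le, ← Real.rpow_natCast δ 2, ← Real.rpow_mul hδ.le]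
  congr 2
  push_cast; ring

theorem N0_change {J H : Matrix (Fin 2) (Fin 2) ℂ} (hH : H.PosDef) (hJ : J.det ≠ 0) (κ : ℤ)
    (s : V) : N0 (Jᵀ * H * J.map conj) κ (J.det ^ κ • s) = N0 H κ s := by
  obtain ⟨B, hB, h1, h2⟩ := exists_root hH
  have hδ : 0 < ‖J.det‖ := norm_pos_iff.2 hJ
  rw [N0, N0, det_change J H hH, rpow_change h2 hδ, norm_smul, norm_zpow, Real.rpow_neg hδ.le,
    Real.rpow_intCast]
  field_simp

theorem N2_change {J H : Matrix (Fin 2) (Fin 2) ℂ} (hH : H.PosDef) (hJ : J.det ≠ 0) (κ : ℤ)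
    (b : V) : N2 (Jᵀ * H * J.map conj) κ (J.det ^ κ • conj J.det • b) = N2 H κ b := by
  obtain ⟨B, hB, h1, h2⟩ := exists_root hH
  have hδ : 0 < ‖J.det‖ := norm_pos_iff.2 hJ
  rw [N2, N2, det_change J H hH, rpow_change h2 hδ, norm_smul, norm_smul, norm_zpow,
    Real.rpow_neg hδ.le, Real.rpow_add hδ, Real.rpow_intCast, Real.rpow_one, RCLike.norm_conj]
  field_simp

theorem N1_change {J H : Matrix (Fin 2) (Fin 2) ℂ} (hH : H.PosDef) (hJ : J.det ≠ 0) (κ : ℤ)
    (a : Fin 2 → V) :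
    N1 (Jᵀ * H * J.map conj) κ (fun i => J.det ^ κ • ∑ p, conj (J p i) • a p) = N1 H κ a := by
  obtain ⟨B, hB, h1, h2⟩ := exists_root hH
  have hδ : 0 < ‖J.det‖ := norm_pos_iff.2 hJ
  have hB2 := root_mat.1 hB
  have hu : IsUnit J.det := isUnit_iff_ne_zero.2 hJ
  have huH : IsUnit Jᴴ.det := by rw [Matrix.det_conjTranspose]; exact hu.star
  have hconj : J.map conj = (Jᴴ)ᵀ := by
    ext i j; simp [Matrix.conjTranspose_apply]
  have hB' : ((Jᵀ * H * J.map conj)⁻¹)ᵀ = (B * (Jᴴ)⁻¹)ᴴ * (B * (Jᴴ)⁻¹) := by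
    rw [hconj, Matrix.mul_inv_rev, Matrix.mul_inv_rev, Matrix.transpose_mul, Matrix.transpose_mul,
      hB2, Matrix.conjTranspose_mul, Matrix.conjTranspose_nonsing_inv,
      Matrix.conjTranspose_conjTranspose, Matrix.transpose_nonsing_inv, Matrix.transpose_transpose,
      Matrix.transpose_nonsing_inv, Matrix.transpose_transpose]
    simp only [Matrix.mul_assoc]
  have hact : bact (B * (Jᴴ)⁻¹) (fun i => J.det ^ κ • ∑ p, conj (J p i) • a p) =
      J.det ^ κ • bact B a := by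
    rw [bact_smul]
    congr 1
    ext k
    have hm : (B * (Jᴴ)⁻¹) * Jᴴ = B := by
      rw [Matrix.mul_assoc, Matrix.nonsing_inv_mul _ huH, Matrix.mul_one]
    simp only [bact]
    have : ∀ j, (B * (Jᴴ)⁻¹) k j • ∑ p, conj (J p j) • a p =
        ∑ p, ((B * (Jᴴ)⁻¹) k j * Jᴴ j p) • a p := by
      intro j
      rw [Finset.smul_sum]
      refine Finset.sum_congr rfl fun p _ => ?_
      rw [smul_smul]; rfl
    simp only [this]
    rw [Finset.sum_comm]
    refine Finset.sum_congr rfl fun p _ => ?_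
    rw [← Finset.sum_smul, ← Matrix.mul_apply, hm]
  rw [N1_eq (root_mat.2 hB'), N1_eq hB, hact, det_change J H hH, rpow_change h2 hδ, norm_smul,
    norm_zpow, Real.rpow_neg hδ.le, Real.rpow_intCast]
  field_simp

/-! ### continuity of the norms on coefficients -/

theorem inv_entry (H : Matrix (Fin 2) (Fin 2) ℂ) (i j : Fin 2) :
    H⁻¹ i j = (H.det)⁻¹ * H.adjugate i j := by
  rw [Matrix.inv_def, Ring.inverse_eq_inv', Matrix.smul_apply, smul_eq_mul]

theorem continuousAt_Q {Y : Type*} [TopologicalSpace Y] {H : Y → Matrix (Fin 2) (Fin 2) ℂ}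
    {a : Y → Fin 2 → V} {y : Y} (hH : ContinuousAt H y) (ha : ContinuousAt a y)
    (hp : (H y).PosDef) : ContinuousAt (fun t => Q (H t) (a t)) y := by
  have hd : (H y).det ≠ 0 := hp.det_pos.ne'
  have h1 : ContinuousAt (fun t => (H t).det) y :=
    (Continuous.matrix_det continuous_id).continuousAt.comp hH
  have h2 : ContinuousAt (fun t => (H t).adjugate) y :=
    (Continuous.matrix_adjugate continuous_id).continuousAt.comp hH
  have h3 : ∀ i j, ContinuousAt (fun t => (H t)⁻¹ i j) y := by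
    intro i j
    simp only [inv_entry]
    exact (h1.inv₀ hd).mul ((continuousAt_pi.1 (continuousAt_pi.1 h2 i)) j)
  have h4 : ∀ i, ContinuousAt (fun t => a t i) y := fun i => continuousAt_pi.1 ha i
  unfold Q
  refine Complex.continuous_re.continuousAt.comp ?_
  refine tendsto_finsetSum _ fun i _ => tendsto_finsetSum _ fun j _ => ?_
  exact (h3 j i).mul ((h4 i).inner (𝕜 := ℂ) (h4 j))

theorem continuousAt_detpow {Y : Type*} [TopologicalSpace Y] {H : Y → Matrix (Fin 2) (Fin 2) ℂ}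
    {y : Y} (hH : ContinuousAt H y) (hp : (H y).PosDef) (t : ℝ) :
    ContinuousAt (fun s => (H s).det.re ^ t) y := by
  have h1 : ContinuousAt (fun t => (H t).det.re) y :=
    Complex.continuous_re.continuousAt.comp
      ((Continuous.matrix_det continuous_id).continuousAt.comp hH)
  obtain ⟨B, hB, h3, h2⟩ := exists_root hp
  exact h1.rpow_const (Or.inl h2.ne')

theorem continuousAt_N1 {Y : Type*} [TopologicalSpace Y] {H : Y → Matrix (Fin 2) (Fin 2) ℂ}
    {a : Y → Fin 2 → V} {y : Y} (hH : ContinuousAt H y) (ha : ContinuousAt a y)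
    (hp : (H y).PosDef) (κ : ℤ) : ContinuousAt (fun t => N1 (H t) κ (a t)) y :=
  (Real.continuous_sqrt.continuousAt.comp (continuousAt_Q hH ha hp)).mul
    (continuousAt_detpow hH hp _)

theorem continuousAt_N0 {Y : Type*} [TopologicalSpace Y] {H : Y → Matrix (Fin 2) (Fin 2) ℂ}
    {a : Y → V} {y : Y} (hH : ContinuousAt H y) (ha : ContinuousAt a y)
    (hp : (H y).PosDef) (κ : ℤ) : ContinuousAt (fun t => N0 (H t) κ (a t)) y :=
  ha.norm.mul (continuousAt_detpow hH hp _)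

theorem continuousAt_N2 {Y : Type*} [TopologicalSpace Y] {H : Y → Matrix (Fin 2) (Fin 2) ℂ}
    {a : Y → V} {y : Y} (hH : ContinuousAt H y) (ha : ContinuousAt a y)
    (hp : (H y).PosDef) (κ : ℤ) : ContinuousAt (fun t => N2 (H t) κ (a t)) y :=
  ha.norm.mul (continuousAt_detpow hH hp _)

/-! ### norms of forms on a surface -/

section surface

variable {M : Type} [TopologicalSpace M] [ChartedSpace C2 M]
variable {h : M → Matrix (Fin 2) (Fin 2) ℂ}

theorem n0_eq (κ : ℤ) (s : M → V) (x : M) : n0 h κ s x = N0 (h x) κ (s x) := rfl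

theorem n1_eq (κ : ℤ) (a : M → Fin 2 → V) (x : M) : n1 h κ a x = N1 (h x) κ (a x) := rfl

theorem n2_eq (κ : ℤ) (b : M → V) (x : M) : n2 h κ b x = N2 (h x) κ (b x) := rfl

variable [IsManifold 𝓘(ℂ, C2) ω M]

theorem loc11_source {e : Ch M} {x : M} (hx : x ∈ e.source)
    (g : M → Matrix (Fin 2) (Fin 2) ℂ) :
    loc11 e g (e x) = (jac e x)ᵀ * g x * (jac e x).map conj := by
  ext i j
  simp only [loc11, Matrix.of_apply, e.left_inv hx, Matrix.mul_apply, Matrix.transpose_apply,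
    Matrix.map_apply, smul_eq_mul, Finset.sum_mul]
  rw [Finset.sum_comm]
  refine Finset.sum_congr rfl fun q _ => Finset.sum_congr rfl fun p _ => ?_
  ring

theorem n0_chart (hh : ∀ x, (h x).PosDef) (κ : ℤ) (s : M → V) {e : Ch M}
    (he : e ∈ atlas C2 M) {x : M} (hx : x ∈ e.source) :
    n0 h κ s x = N0 (loc11 e h (e x)) κ (loc0 κ e s (e x)) := by
  rw [loc11_source hx, loc0_source hx, N0_change (hh x) (jac_det_ne_zero he hx), n0_eq]

theorem n2_chart (hh : ∀ x, (h x).PosDef) (κ : ℤ) (s : M → V) {e : Ch M}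
    (he : e ∈ atlas C2 M) {x : M} (hx : x ∈ e.source) :
    n2 h κ s x = N2 (loc11 e h (e x)) κ (loc2 κ e s (e x)) := by
  rw [loc11_source hx, loc2_source hx, N2_change (hh x) (jac_det_ne_zero he hx), n2_eq]

theorem n1_chart (hh : ∀ x, (h x).PosDef) (κ : ℤ) (a : M → Fin 2 → V) {e : Ch M}
    (he : e ∈ atlas C2 M) {x : M} (hx : x ∈ e.source) :
    n1 h κ a x = N1 (loc11 e h (e x)) κ (loc1 κ e a (e x)) := by
  have : loc1 κ e a (e x) = fun i => (jac e x).det ^ κ • ∑ p, conj (jac e x p i) • a x p := by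
    funext i; exact loc1_source hx a i
  rw [loc11_source hx, this, N1_change (hh x) (jac_det_ne_zero he hx), n1_eq]

theorem loc11_posDef (hh : ∀ x, (h x).PosDef) {e : Ch M} (he : e ∈ atlas C2 M) {x : M}
    (hx : x ∈ e.source) : (loc11 e h (e x)).PosDef := by
  rw [loc11_source hx]
  exact posDef_change (hh x) (jac_det_ne_zero he hx)

theorem loc11_continuousAt (hh : IsHerm h) {e : Ch M} (he : e ∈ atlas C2 M) {x : M}
    (hx : x ∈ e.source) : ContinuousAt (fun y => loc11 e h (e y)) x := by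
  have h1 : ContinuousAt (fun z => loc11 e h z) (e x) := by
    refine continuousAt_pi.2 fun i => continuousAt_pi.2 fun j => ?_
    exact ((hh.smooth e he i j).continuousOn.continuousAt
      (e.open_target.mem_nhds (e.map_source hx)))
  exact h1.comp (e.continuousAt hx)

/-- `n1` of a continuous form is continuous -/
theorem continuous_n1 (hh : IsHerm h) {n : WithTop ℕ∞} {κ : ℤ} {a : M → Fin 2 → V}
    (ha : Reg1 n κ a) : Continuous (n1 h κ a) := by
  rw [continuous_iff_continuousAt]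
  intro x
  have hx := mem_chart_source C2 x
  have he := chart_mem_atlas C2 x
  have h2 : ContinuousAt (fun y => loc1 κ (chartAt C2 x) a (chartAt C2 x y)) x :=
    ((ha _ he).continuousOn.continuousAt
      ((chartAt C2 x).open_target.mem_nhds ((chartAt C2 x).map_source hx))).comp
      ((chartAt C2 x).continuousAt hx)
  have h3 := continuousAt_N1 (loc11_continuousAt hh he hx) h2 (loc11_posDef hh.posDef he hx) κ
  refine h3.congr ?_
  filter_upwards [(chartAt C2 x).open_source.mem_nhds hx] with y hy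
  exact (n1_chart hh.posDef κ a he hy).symm

theorem continuous_n0 (hh : IsHerm h) {n : WithTop ℕ∞} {κ : ℤ} {s : M → V}
    (hs : Reg0 n κ s) : Continuous (n0 h κ s) := by
  rw [continuous_iff_continuousAt]
  intro x
  have hx := mem_chart_source C2 x
  have he := chart_mem_atlas C2 x
  have h2 : ContinuousAt (fun y => loc0 κ (chartAt C2 x) s (chartAt C2 x y)) x :=
    ((hs _ he).continuousOn.continuousAt
      ((chartAt C2 x).open_target.mem_nhds ((chartAt C2 x).map_source hx))).comp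
      ((chartAt C2 x).continuousAt hx)
  have h3 := continuousAt_N0 (loc11_continuousAt hh he hx) h2 (loc11_posDef hh.posDef he hx) κ
  refine h3.congr ?_
  filter_upwards [(chartAt C2 x).open_source.mem_nhds hx] with y hy
  exact (n0_chart hh.posDef κ s he hy).symm

theorem continuous_n2 (hh : IsHerm h) {n : WithTop ℕ∞} {κ : ℤ} {b : M → V}
    (hb : Reg2 n κ b) : Continuous (n2 h κ b) := by
  rw [continuous_iff_continuousAt]
  intro x
  have hx := mem_chart_source C2 x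
  have he := chart_mem_atlas C2 x
  have h2 : ContinuousAt (fun y => loc2 κ (chartAt C2 x) b (chartAt C2 x y)) x :=
    ((hb _ he).continuousOn.continuousAt
      ((chartAt C2 x).open_target.mem_nhds ((chartAt C2 x).map_source hx))).comp
      ((chartAt C2 x).continuousAt hx)
  have h3 := continuousAt_N2 (loc11_continuousAt hh he hx) h2 (loc11_posDef hh.posDef he hx) κ
  refine h3.congr ?_
  filter_upwards [(chartAt C2 x).open_source.mem_nhds hx] with y hy
  exact (n2_chart hh.posDef κ b he hy).symm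

theorem n0_nonneg (hh : ∀ x, (h x).PosDef) (κ : ℤ) (s : M → V) (x : M) : 0 ≤ n0 h κ s x :=
  N0_nonneg (hh x) _

theorem n1_nonneg (hh : ∀ x, (h x).PosDef) (κ : ℤ) (a : M → Fin 2 → V) (x : M) :
    0 ≤ n1 h κ a x := N1_nonneg (hh x) _

theorem n2_nonneg (hh : ∀ x, (h x).PosDef) (κ : ℤ) (b : M → V) (x : M) : 0 ≤ n2 h κ b x :=
  N2_nonneg (hh x) _

theorem n0_zero_eq (s : M → V) (x : M) : n0 h 0 s x = ‖s x‖ := by simp [n0]

theorem n0_add_le (hh : ∀ x, (h x).PosDef) (κ : ℤ) (s t : M → V) (x : M) :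
    n0 h κ (fun y => s y + t y) x ≤ n0 h κ s x + n0 h κ t x := N0_add_le (hh x) _ _

theorem n2_add_le (hh : ∀ x, (h x).PosDef) (κ : ℤ) (s t : M → V) (x : M) :
    n2 h κ (fun y => s y + t y) x ≤ n2 h κ s x + n2 h κ t x := N2_add_le (hh x) _ _

theorem n1_add_le (hh : ∀ x, (h x).PosDef) (κ : ℤ) (a b : M → Fin 2 → V) (x : M) :
    n1 h κ (fun y i => a y i + b y i) x ≤ n1 h κ a x + n1 h κ b x := N1_add_le (hh x) _ _

theorem n0_sub_le (hh : ∀ x, (h x).PosDef) (κ : ℤ) (s t : M → V) (x : M) :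
    n0 h κ (fun y => s y - t y) x ≤ n0 h κ s x + n0 h κ t x := N0_sub_le (hh x) _ _

theorem n2_sub_le (hh : ∀ x, (h x).PosDef) (κ : ℤ) (s t : M → V) (x : M) :
    n2 h κ (fun y => s y - t y) x ≤ n2 h κ s x + n2 h κ t x := N2_sub_le (hh x) _ _

theorem n1_sub_le (hh : ∀ x, (h x).PosDef) (κ : ℤ) (a b : M → Fin 2 → V) (x : M) :
    n1 h κ (fun y i => a y i - b y i) x ≤ n1 h κ a x + n1 h κ b x := N1_sub_le (hh x) _ _

/-- multiplication by functions -/
theorem n0_smul (κ : ℤ) (c : M → ℂ) (s : M → V) (x : M) :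
    n0 h κ (fun y => c y • s y) x = ‖c x‖ * n0 h κ s x := N0_smul _ _

theorem n2_smul (κ : ℤ) (c : M → ℂ) (s : M → V) (x : M) :
    n2 h κ (fun y => c y • s y) x = ‖c x‖ * n2 h κ s x := N2_smul _ _

theorem n1_smul (hh : ∀ x, (h x).PosDef) (κ : ℤ) (c : M → ℂ) (a : M → Fin 2 → V) (x : M) :
    n1 h κ (fun y i => c y • a y i) x = ‖c x‖ * n1 h κ a x := N1_smul (hh x) _ _

/-- scalar `(0,1)`-form times a section -/
theorem n1_form_smul (hh : ∀ x, (h x).PosDef) (κ : ℤ) (a : M → Fin 2 → ℂ) (s : M → V) (x : M) :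
    n1 h κ (fun y i => a y i • s y) x = n1 h 0 a x * n0 h κ s x := by
  obtain ⟨B, hB, h1, h2⟩ := exists_root (hh x)
  rw [n1_eq, n1_eq, n0_eq, N1_eq hB, N1_eq hB, N0]
  have : bact B (fun i => a x i • s x) =
      WithLp.toLp 2 (fun k => (∑ j, B k j * a x j) • s x) := by
    ext k
    simp only [bact, smul_smul, Finset.sum_smul]
  have h3 : ‖bact B (fun i => a x i • s x)‖ = ‖bact B (a x)‖ * ‖s x‖ := by
    rw [this, PiLp.norm_eq_of_L2, PiLp.norm_eq_of_L2]
    simp only [norm_smul, mul_pow, ← Finset.sum_mul]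
    rw [Real.sqrt_mul (by positivity), Real.sqrt_sq (norm_nonneg _)]
    rfl
  rw [h3]
  simp only [Int.cast_zero, neg_zero, zero_div, Real.rpow_zero, mul_one]
  ring

theorem n1_sum_le (hh : ∀ x, (h x).PosDef) (κ : ℤ) {ι : Type*} (S : Finset ι)
    (a : ι → M → Fin 2 → V) (x : M) :
    n1 h κ (fun y i => ∑ l ∈ S, a l y i) x ≤ ∑ l ∈ S, n1 h κ (a l) x :=
  N1_sum_le (hh x) S fun l => a l x

/-- wedge product of a scalar `(0,1)`-form and a `(0,1)`-form -/
theorem n2_wedge_le (hh : ∀ x, (h x).PosDef) (κ : ℤ) (α : M → Fin 2 → ℂ) (β : M → Fin 2 → V)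
    (x : M) : n2 h κ (fun y => α y 0 • β y 1 - α y 1 • β y 0) x ≤ n1 h 0 α x * n1 h κ β x :=
  N2_wdg_le (hh x) (α x) (β x)

theorem n1_eq_zero_iff (hh : ∀ x, (h x).PosDef) (κ : ℤ) (a : M → Fin 2 → V) (x : M) :
    n1 h κ a x = 0 ↔ ∀ i, a x i = 0 := by
  rw [n1_eq, N1_eq_zero_iff (hh x), funext_iff]; rfl

end surface

/-! ### invariant functions on the covering -/

section cov

variable {M : Type} [TopologicalSpace M] [ChartedSpace C2 M] (D : XTData M)

theorem inv_sh {Y : Type*} {F : M → Y} (hinv : ∀ x, F (D.γ x) = F x) (k : ℤ) (x : M) :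
    F (D.sh k x) = F x := by
  revert k
  apply XTData.sh_induction
  · rfl
  · intro k hk
    rw [← D.γ_sh, hinv, hk]
  · intro k hk
    have := hinv (D.sh (k - 1) x)
    rw [D.γ_sh, sub_add_cancel, hk] at this
    exact this.symm

/-- every point has a translate in the slab `0 ≤ f ≤ 1` -/
theorem exists_sh_mem_slab (x : M) : D.sh (-⌊D.f x⌋) x ∈ D.slab 0 := by
  have := (D.sh_mem_slab (j := ⌊D.f x⌋) (k := -⌊D.f x⌋) (x := x)).2 (D.mem_slab_floor x)
  simpa using this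

theorem bdd_of_inv {F : M → ℝ} (hF : Continuous F) (hinv : ∀ x, F (D.γ x) = F x) :
    ∃ C, 0 ≤ C ∧ ∀ x, F x ≤ C := by
  obtain ⟨C, hC⟩ := ((D.isCompact_slab 0).image hF).bddAbove
  refine ⟨max C 0, le_max_right _ _, fun x => ?_⟩
  rw [← inv_sh D hinv (-⌊D.f x⌋) x]
  exact (hC ⟨_, exists_sh_mem_slab D x, rfl⟩).trans (le_max_left _ _)

/-- pointwise weighted bounds give bounds of the profile -/
theorem prof_le_of_weight {n : M → ℝ} {B d : ℝ} (hB : 0 ≤ B)
    (h : ∀ x, n x ≤ B * Real.exp (-(d * D.f x))) (j : ℤ) :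
    D.prof n j ≤ B * Real.exp |d| * Real.exp (-(d * j)) := by
  refine D.prof_le (by positivity) fun x hx => (h x).trans ?_
  rw [mul_assoc, ← Real.exp_add]
  gcongr
  have h1 := hx.1
  have h2 := hx.2
  have : -(d * (D.f x - j)) ≤ |d| := by
    rcases abs_cases d with ⟨h3, h4⟩ | ⟨h3, h4⟩ <;> rw [h3] <;> nlinarith
  linarith

/-- bounds of the profile give pointwise weighted bounds -/
theorem weight_of_prof_le {n : M → ℝ} (hn : Continuous n) {B d : ℝ} (hB : 0 ≤ B)
    (h : ∀ j : ℤ, D.prof n j ≤ B * Real.exp (-(d * j))) (x : M) :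
    n x ≤ B * Real.exp |d| * Real.exp (-(d * D.f x)) := by
  have hx := D.mem_slab_floor x
  refine (D.le_prof hn hx).trans ((h _).trans ?_)
  rw [mul_assoc, ← Real.exp_add]
  gcongr
  have h1 := hx.1
  have h2 := hx.2
  have : d * (D.f x - ⌊D.f x⌋) ≤ |d| := by
    rcases abs_cases d with ⟨h3, h4⟩ | ⟨h3, h4⟩ <;> rw [h3] <;> nlinarith
  linarith

end cov

end Vale.Agent.P267.H87
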