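import Vale.Agent.P267.H399.Calc2

/-!
# P267 / H87: small calculus of line bundles: regularity and algebra of `db0`, `db1` (helper87)
-/

set_option linter.unusedVariables false
set_option linter.unusedSectionVars false

open scoped Manifold ContDiff ComplexConjugate Matrix ComplexOrder Topology
open MeasureTheory Set Filter

noncomputable section

namespace Vale.Agent.P267.H87

open FL

variable {X : Type*} [TopologicalSpace X] [ChartedSpace C2 X]
variable {ι : Type} [Fintype ι] [DecidableEq ι]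


/-- `v ↦ v_j e_i` -/
def elt (i j : ι) : (EuclideanSpace ℂ ι) →L[ℂ] (EuclideanSpace ℂ ι) :=
  (EuclideanSpace.proj (𝕜 := ℂ) j : (EuclideanSpace ℂ ι) →L[ℂ] ℂ).smulRight (EuclideanSpace.single i (1 : ℂ))

theorem act_eq_sum (A : Matrix ι ι ℂ) (v : EuclideanSpace ℂ ι) :
    LB.act A v = ∑ i, ∑ j, A i j • elt i j v := by
  ext k
  simp only [LB.act, elt, ContinuousLinearMap.smulRight_apply, PiLp.proj_apply,
    WithLp.ofLp_sum, WithLp.ofLp_smul, Finset.sum_apply, Pi.smul_apply, PiLp.ofLp_single,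
    smul_eq_mul, Pi.single_apply, mul_ite, mul_one, mul_zero, Matrix.mulVec, dotProduct]
  rw [Finset.sum_comm]
  simp

theorem act_add (A : Matrix ι ι ℂ) (v w : EuclideanSpace ℂ ι) : LB.act A (v + w) = LB.act A v + LB.act A w := by
  simp only [act_eq_sum, map_add, smul_add, Finset.sum_add_distrib]

theorem act_sub (A : Matrix ι ι ℂ) (v w : EuclideanSpace ℂ ι) : LB.act A (v - w) = LB.act A v - LB.act A w := by
  simp only [act_eq_sum, map_sub, smul_sub, Finset.sum_sub_distrib]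

theorem act_smul (A : Matrix ι ι ℂ) (c : ℂ) (v : EuclideanSpace ℂ ι) : LB.act A (c • v) = c • LB.act A v := by
  simp only [act_eq_sum, map_smul, Finset.smul_sum]
  refine Finset.sum_congr rfl fun i _ => Finset.sum_congr rfl fun j _ => ?_
  rw [smul_comm]

@[simp] theorem act_zero (A : Matrix ι ι ℂ) : LB.act A (0 : EuclideanSpace ℂ ι) = 0 := by
  simp [act_eq_sum]

theorem act_neg (A : Matrix ι ι ℂ) (v : EuclideanSpace ℂ ι) : LB.act A (-v) = -LB.act A v := by
  simp only [act_eq_sum, map_neg, smul_neg, Finset.sum_neg_distrib]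

theorem act_sum {J : Type*} (A : Matrix ι ι ℂ) (S : Finset J) (v : J → EuclideanSpace ℂ ι) :
    LB.act A (∑ k ∈ S, v k) = ∑ k ∈ S, LB.act A (v k) := by
  classical
  induction S using Finset.induction_on with
  | empty => simp
  | insert k S hk ih => rw [Finset.sum_insert hk, Finset.sum_insert hk, act_add, ih]

theorem act_act (A B : Matrix ι ι ℂ) (v : EuclideanSpace ℂ ι) : LB.act A (LB.act B v) = LB.act (A * B) v := by
  simp only [LB.act, Matrix.mulVec_mulVec]

theorem act_idem (L : LB X ι) (x : X) (v : EuclideanSpace ℂ ι) :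
    LB.act (L.P x) (LB.act (L.P x) v) = LB.act (L.P x) v := by
  rw [act_act, L.idem]

section reg

variable [IsManifold 𝓘(ℂ, C2) ω X] {n : WithTop ℕ∞} {κ : ℤ}

theorem at0_P (L : LB X ι) (x : X) (i j : ι) : At0 ∞ 0 (fun y => L.P y i j) x :=
  (L.smooth i j).at x

theorem at0_act (hn : n ≤ ∞) (L : LB X ι) {s : X → EuclideanSpace ℂ ι} {x : X} (hs : At0 n κ s x) :
    At0 n κ (fun y => LB.act (L.P y) (s y)) x := by
  have : (fun y => LB.act (L.P y) (s y)) = fun y => ∑ i, ∑ j, L.P y i j • elt i j (s y) := by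
    funext y
    exact act_eq_sum _ _
  rw [this]
  refine At0.sum fun i _ => At0.sum fun j _ => ?_
  exact ((at0_P L x i j).of_le hn).smul (hs.clm (elt i j))

theorem at1_act (hn : n ≤ ∞) (L : LB X ι) {s : X → Fin 2 → EuclideanSpace ℂ ι} {x : X} (hs : At1 n κ s x) :
    At1 n κ (fun y k => LB.act (L.P y) (s y k)) x := by
  have h : (fun y k => LB.act (L.P y) (s y k)) =
      fun y => ∑ i, ∑ j, (fun k => L.P y i j • elt i j (s y k)) := by
    funext y k
    simp only [Finset.sum_apply]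
    exact act_eq_sum _ _
  rw [h]
  refine At1.sum (s := fun i y => ∑ j, fun k => L.P y i j • elt i j (s y k)) fun i _ => ?_
  refine At1.sum (s := fun j y k => L.P y i j • elt i j (s y k)) fun j _ => ?_
  exact At1.smul ((at0_P L x i j).of_le hn) (hs.clm (elt i j))

theorem at2_act (hn : n ≤ ∞) (L : LB X ι) {s : X → EuclideanSpace ℂ ι} {x : X} (hs : At2 n κ s x) :
    At2 n κ (fun y => LB.act (L.P y) (s y)) x := by
  have : (fun y => LB.act (L.P y) (s y)) = fun y => ∑ i, ∑ j, L.P y i j • elt i j (s y) := by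
    funext y
    exact act_eq_sum _ _
  rw [this]
  refine At2.sum (s := fun i y => ∑ j, L.P y i j • elt i j (s y)) fun i _ => ?_
  refine At2.sum (s := fun j y => L.P y i j • elt i j (s y)) fun j _ => ?_
  exact At2.smul ((at0_P L x i j).of_le hn) (hs.clm (elt i j))

theorem at1_db0 (L : LB X ι) {a : X → Fin 2 → ℂ} {s : X → EuclideanSpace ℂ ι} {x : X} (ha : At1 ∞ 0 a x)
    (hs : At0 ∞ κ s x) : At1 ∞ κ (fun y k => L.db0 a κ s y k) x :=
  (at1_act le_rfl L (hs.dbar infty_add_one_le)).add (ha.smul_right hs)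

theorem at2_db1 (L : LB X ι) {a : X → Fin 2 → ℂ} {w : X → Fin 2 → EuclideanSpace ℂ ι} {x : X}
    (ha : At1 ∞ 0 a x) (hw : At1 ∞ κ w x) : At2 ∞ κ (fun y => L.db1 a κ w y) x :=
  (at2_act le_rfl L (hw.dbar infty_add_one_le)).add (At2.wedge_smul ha hw)

theorem reg1_db0 (L : LB X ι) {a : X → Fin 2 → ℂ} {s : X → EuclideanSpace ℂ ι} (ha : Reg1 ∞ 0 a)
    (hs : Reg0 ∞ κ s) : Reg1 ∞ κ (L.db0 a κ s) :=
  reg1_iff_at.2 fun x => at1_db0 L (ha.at x) (hs.at x)

theorem reg2_db1 (L : LB X ι) {a : X → Fin 2 → ℂ} {w : X → Fin 2 → EuclideanSpace ℂ ι} (ha : Reg1 ∞ 0 a)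
    (hw : Reg1 ∞ κ w) : Reg2 ∞ κ (L.db1 a κ w) :=
  reg2_iff_at.2 fun x => at2_db1 L (ha.at x) (hw.at x)

end reg

/-! ### algebra of `db0`, `db1` -/

section alg

variable {κ : ℤ}

theorem sec1_db0 (L : LB X ι) (a : X → Fin 2 → ℂ) {s : X → EuclideanSpace ℂ ι} (hs : L.Sec s) :
    L.Sec1 (L.db0 a κ s) := by
  intro x i
  rw [LB.db0, act_add, act_idem, act_smul, hs x]

theorem sec_db1 (L : LB X ι) (a : X → Fin 2 → ℂ) {w : X → Fin 2 → EuclideanSpace ℂ ι} (hw : L.Sec1 w) :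
    L.Sec (L.db1 a κ w) := by
  intro x
  rw [LB.db1, act_add, act_idem, act_sub, act_smul, act_smul, hw x 0, hw x 1]

theorem db1_sub (L : LB X ι) (a : X → Fin 2 → ℂ) {v w : X → Fin 2 → EuclideanSpace ℂ ι} {x : X}
    (hv : At1 1 κ v x) (hw : At1 1 κ w x) :
    L.db1 a κ (fun y => v y - w y) x = L.db1 a κ v x - L.db1 a κ w x := by
  simp only [LB.db1, dbar1_sub hv hw, act_sub, Pi.sub_apply, smul_sub]
  abel

theorem db1_sum (L : LB X ι) (a : X → Fin 2 → ℂ) {J : Type*} (S : Finset J) (c : J → ℂ)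
    {w : J → X → Fin 2 → EuclideanSpace ℂ ι} {x : X} (hw : ∀ j ∈ S, At1 1 κ (w j) x) :
    L.db1 a κ (fun y i => ∑ j ∈ S, c j • w j y i) x = ∑ j ∈ S, c j • L.db1 a κ (w j) x := by
  have h : (fun y i => ∑ j ∈ S, c j • w j y i) = fun y => ∑ j ∈ S, (fun i => c j • w j y i) := by
    funext y i
    simp only [Finset.sum_apply]
  have h1 : dbar1 κ (fun y i => ∑ j ∈ S, c j • w j y i) x = ∑ j ∈ S, c j • dbar1 κ (w j) x := by
    rw [h, dbar1_sum (s := fun j y i => c j • w j y i) fun j hj => (hw j hj).const_smul (c j)]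
    exact Finset.sum_congr rfl fun j hj => dbar1_const_smul (c j) (hw j hj)
  rw [LB.db1, h1, act_sum]
  simp only [act_smul, LB.db1, smul_add, smul_sub, Finset.sum_add_distrib, Finset.sum_sub_distrib,
    Finset.smul_sum]
  congr 2
  · exact Finset.sum_congr rfl fun j _ => smul_comm _ _ _
  · exact Finset.sum_congr rfl fun j _ => smul_comm _ _ _

theorem db1_smul [IsManifold 𝓘(ℂ, C2) ω X] (L : LB X ι) (a : X → Fin 2 → ℂ) {χ : X → ℂ}
    {w : X → Fin 2 → EuclideanSpace ℂ ι} {x : X}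
    (hχ : At0 1 0 χ x) (hw : At1 1 κ w x) (hs : L.Sec1 w) :
    L.db1 a κ (fun y i => χ y • w y i) x =
      (dbar0 0 χ x 0 • w x 1 - dbar0 0 χ x 1 • w x 0) + χ x • L.db1 a κ w x := by
  rw [LB.db1, dbar1_smul hχ hw, act_add, act_sub, act_smul, act_smul, act_smul, hs x 0, hs x 1,
    LB.db1, smul_add, smul_sub, smul_comm (a x 0), smul_comm (a x 1)]
  abel

theorem db1_change (L : LB X ι) (a b : X → Fin 2 → ℂ) (w : X → Fin 2 → EuclideanSpace ℂ ι) (x : X) :
    L.db1 b κ w x = L.db1 a κ w x + ((b x 0 - a x 0) • w x 1 - (b x 1 - a x 1) • w x 0) := by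
  rw [LB.db1, LB.db1, sub_smul, sub_smul]
  abel

theorem db0_change (L : LB X ι) (a b : X → Fin 2 → ℂ) (s : X → EuclideanSpace ℂ ι) (x : X) (i : Fin 2) :
    L.db0 b κ s x i = L.db0 a κ s x i + (b x i - a x i) • s x := by
  rw [LB.db0, LB.db0, sub_smul]
  abel

theorem db0_const_smul (L : LB X ι) (a : X → Fin 2 → ℂ) (c : ℂ) {s : X → EuclideanSpace ℂ ι} {x : X}
    (hs : At0 1 κ s x) (i : Fin 2) :
    L.db0 a κ (fun y => c • s y) x i = c • L.db0 a κ s x i := by
  rw [LB.db0, dbar0_const_smul c hs, act_smul, LB.db0, smul_add, smul_comm (a x i)]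

/-- `db1` only depends on the fibre of `L` at the point and the germs of `w` -/
theorem db1_congr {L L' : LB X ι} {a : X → Fin 2 → ℂ} {v w : X → Fin 2 → EuclideanSpace ℂ ι} {x : X}
    (hL : L'.P x = L.P x) (h : v =ᶠ[𝓝 x] w) : L'.db1 a κ v x = L.db1 a κ w x := by
  rw [LB.db1, LB.db1, hL, dbar1_congr h, h.self_of_nhds]

theorem db0_congr {L L' : LB X ι} {a : X → Fin 2 → ℂ} {v w : X → EuclideanSpace ℂ ι} {x : X}
    (hL : L'.P x = L.P x) (h : v =ᶠ[𝓝 x] w) (i : Fin 2) : L'.db0 a κ v x i = L.db0 a κ w x i := by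
  rw [LB.db0, LB.db0, hL, dbar0_congr h, h.self_of_nhds]

end alg

end Vale.Agent.P267.H87
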